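import Vale.Agent.P146.R2.H501.TrE

/-!
# P146 (helper501): row E' of the transport, uniform in the degree
-/

open Matrix
open scoped Matrix.Norms.L2Operator

namespace Vale.Agent.P146.R2.H501.RowE

open Vale.Agent.P146.R2.H432 (cheb)
open Vale.Agent.P146.R2.H729.Tr
open Vale.Agent.P146.Sk (Wm Ix)
open Vale.Agent.P146.R2.H501.TrE

variable {n : ℕ}

/-- the difference of two values of a Chebyshev polynomial -/
theorem cheb_sub (A B : Matrix (Fin n) (Fin n) ℝ) (k : ℕ) :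
    cheb (k + 1) A - cheb (k + 1) B =
      ∑ a ∈ Finset.range (k + 1), cheb a A * (A - B) * cheb (k - a) B := by
  let S : ℕ → Matrix (Fin n) (Fin n) ℝ := fun k =>
    ∑ a ∈ Finset.range k, cheb a A * (A - B) * cheb (k - 1 - a) B
  have hS : ∀ k, S (k + 2) = (A - B) * cheb (k + 1) B + A * S (k + 1) - S k := by
    intro k
    have h1 : S (k + 2) = ∑ a ∈ Finset.range (k + 1),
        cheb (a + 1) A * (A - B) * cheb (k - a) B + (A - B) * cheb (k + 1) B := by
      show ∑ a ∈ Finset.range (k + 2), cheb a A * (A - B) * cheb (k + 2 - 1 - a) B = _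
      rw [Finset.sum_range_succ']
      congr 1
      · refine Finset.sum_congr rfl fun a _ => ?_
        congr 2
        omega
      · show 1 * (A - B) * cheb (k + 1) B = _
        rw [one_mul]
    have h2 : S (k + 1) = ∑ a ∈ Finset.range k,
        cheb (a + 1) A * (A - B) * cheb (k - 1 - a) B + (A - B) * cheb k B := by
      show ∑ a ∈ Finset.range (k + 1), cheb a A * (A - B) * cheb (k + 1 - 1 - a) B = _
      rw [Finset.sum_range_succ']
      congr 1
      · refine Finset.sum_congr rfl fun a _ => ?_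
        congr 2
        omega
      · show 1 * (A - B) * cheb k B = _
        rw [one_mul]
    have h3 : ∑ a ∈ Finset.range (k + 1), cheb (a + 1) A * (A - B) * cheb (k - a) B =
        ∑ a ∈ Finset.range k, cheb (a + 2) A * (A - B) * cheb (k - 1 - a) B +
          A * (A - B) * cheb k B := by
      rw [Finset.sum_range_succ']
      congr 1
      refine Finset.sum_congr rfl fun a _ => ?_
      congr 2
      omega
    have h4 : ∑ a ∈ Finset.range k, cheb (a + 2) A * (A - B) * cheb (k - 1 - a) B =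
        A * ∑ a ∈ Finset.range k, cheb (a + 1) A * (A - B) * cheb (k - 1 - a) B - S k := by
      show _ = _ - ∑ a ∈ Finset.range k, cheb a A * (A - B) * cheb (k - 1 - a) B
      rw [Finset.mul_sum, ← Finset.sum_sub_distrib]
      refine Finset.sum_congr rfl fun a _ => ?_
      show (A * cheb (a + 1) A - cheb a A) * (A - B) * cheb (k - 1 - a) B = _
      noncomm_ring
    rw [h1, h3, h4, h2]
    noncomm_ring
  have hD : ∀ k, cheb k A - cheb k B = S k ∧ cheb (k + 1) A - cheb (k + 1) B = S (k + 1) := by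
    intro k
    induction k with
    | zero =>
      refine ⟨?_, ?_⟩
      · show (1 : Matrix (Fin n) (Fin n) ℝ) - 1 = ∑ a ∈ Finset.range 0, _
        rw [Finset.sum_range_zero, sub_self]
      · show A - B = ∑ a ∈ Finset.range 1, cheb a A * (A - B) * cheb (1 - 1 - a) B
        rw [Finset.sum_range_one]
        show A - B = 1 * (A - B) * 1
        rw [one_mul, mul_one]
    | succ k ih =>
      refine ⟨ih.2, ?_⟩
      rw [hS k, ← ih.1, ← ih.2]
      show (A * cheb (k + 1) A - cheb k A) - (B * cheb (k + 1) B - cheb k B) = _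
      noncomm_ring
  exact (hD k).2

theorem pow_le_three {L : ℕ} (hL : 1 ≤ L) {k : ℕ} (hk : k ≤ L) : (1 + 1 / (L : ℝ)) ^ k ≤ 3 := by
  have hL' : (0 : ℝ) < L := by exact_mod_cast hL
  have h0 : (1 : ℝ) ≤ 1 + 1 / (L : ℝ) := by
    have : 0 < 1 / (L : ℝ) := by positivity
    linarith
  calc (1 + 1 / (L : ℝ)) ^ k ≤ (1 + 1 / (L : ℝ)) ^ L := pow_le_pow_right₀ h0 hk
    _ ≤ Real.exp (1 / (L : ℝ)) ^ L := by
        refine pow_le_pow_left₀ (by linarith) ?_ L
        have := Real.add_one_le_exp (1 / (L : ℝ))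
        linarith
    _ = Real.exp 1 := by
        rw [← Real.exp_nat_mul]
        congr 1
        field_simp
    _ ≤ 3 := by
        have := Real.exp_one_lt_d9
        linarith

/-- one summand -/
theorem hs_term' {L : ℕ} (hL : 1 ≤ L) {A B : Matrix (Fin n) (Fin n) ℝ}
    (hA : ∀ a, ‖cheb a A‖ ≤ ((a : ℝ) + 1) * (1 + 1 / (L : ℝ)) ^ a)
    (hB : ∀ a, ‖cheb a B‖ ≤ ((a : ℝ) + 1) * (1 + 1 / (L : ℝ)) ^ a)
    (X : Matrix (Fin n) (Fin n) ℝ) {a k : ℕ} (ha : a ≤ k) (hk : k < L) :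
    hs (cheb a A * X * cheb (k - a) B) ≤ 9 * (L : ℝ) ^ 4 * hs X := by
  have hL' : (0 : ℝ) < L := by exact_mod_cast hL
  have h0 := hs_nonneg X
  have h1 : hs (cheb a A * X * cheb (k - a) B) ≤ (‖cheb a A‖ * ‖cheb (k - a) B‖) ^ 2 * hs X := by
    calc hs (cheb a A * X * cheb (k - a) B) ≤ ‖cheb (k - a) B‖ ^ 2 * hs (cheb a A * X) :=
          hs_mul_right _ _
      _ ≤ ‖cheb (k - a) B‖ ^ 2 * (‖cheb a A‖ ^ 2 * hs X) :=
          mul_le_mul_of_nonneg_left (hs_mul_left _ _) (sq_nonneg _)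
      _ = _ := by ring
  have h2 : ‖cheb a A‖ * ‖cheb (k - a) B‖ ≤ 3 * (L : ℝ) ^ 2 := by
    have i1 : ((a : ℝ) + 1) ≤ L := by
      have : a + 1 ≤ L := by omega
      exact_mod_cast this
    have i2 : (((k - a : ℕ) : ℝ) + 1) ≤ L := by
      have : (k - a) + 1 ≤ L := by omega
      exact_mod_cast this
    have i3 : (0 : ℝ) ≤ (a : ℝ) + 1 := by positivity
    have i4 : (0 : ℝ) ≤ ((k - a : ℕ) : ℝ) + 1 := by positivity
    calc ‖cheb a A‖ * ‖cheb (k - a) B‖ ≤ (((a : ℝ) + 1) * (1 + 1 / (L : ℝ)) ^ a) *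
          ((((k - a : ℕ) : ℝ) + 1) * (1 + 1 / (L : ℝ)) ^ (k - a)) :=
          mul_le_mul (hA a) (hB (k - a)) (norm_nonneg _) (by positivity)
      _ = (((a : ℝ) + 1) * (((k - a : ℕ) : ℝ) + 1)) *
          ((1 + 1 / (L : ℝ)) ^ a * (1 + 1 / (L : ℝ)) ^ (k - a)) := by ring
      _ = (((a : ℝ) + 1) * (((k - a : ℕ) : ℝ) + 1)) * (1 + 1 / (L : ℝ)) ^ k := by
          rw [← pow_add, Nat.add_sub_cancel' ha]
      _ ≤ ((L : ℝ) * L) * 3 :=
          mul_le_mul (mul_le_mul i1 i2 i4 (by positivity)) (pow_le_three hL hk.le)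
            (by positivity) (by positivity)
      _ = _ := by ring
  have h3 := pow_le_pow_left₀ (by positivity) h2 2
  calc hs (cheb a A * X * cheb (k - a) B) ≤ (‖cheb a A‖ * ‖cheb (k - a) B‖) ^ 2 * hs X := h1
    _ ≤ (3 * (L : ℝ) ^ 2) ^ 2 * hs X := mul_le_mul_of_nonneg_right h3 h0
    _ = _ := by ring

/-- Row E', from the spectral bounds of the Chebyshev polynomials -/
theorem rowE_of {L : ℕ} (hL : 1 ≤ L) {gam : ℝ} (h0 : 0 ≤ gam) (hg : gam * (L : ℝ) ^ 4 ≤ 1 / 12)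
    (c : ℕ → ℝ) (hc : ∀ k, |c k| ≤ 2 * gam) {A B : Matrix (Fin n) (Fin n) ℝ}
    (hA : ∀ a, ‖cheb a A‖ ≤ ((a : ℝ) + 1) * (1 + 1 / (L : ℝ)) ^ a)
    (hB : ∀ a, ‖cheb a B‖ ≤ ((a : ℝ) + 1) * (1 + 1 / (L : ℝ)) ^ a) :
    (∀ x : Ix n → ℝ, ∑ e, (KK L c A *ᵥ x) e ^ 2 ≤ 1 / 4 * ∑ e, x e ^ 2) ∧
    ∑ i, ∑ j, (hm L c A i j - hm L c B i j) ^ 2 ≤ 1 / 4 * ∑ i, ∑ j, (A i j - B i j) ^ 2 := by
  have hL' : (0 : ℝ) < L := by exact_mod_cast hL
  have hc2 : ∀ k, c k ^ 2 ≤ 4 * gam ^ 2 := by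
    intro k
    have h := pow_le_pow_left₀ (abs_nonneg _) (hc k) 2
    rw [sq_abs] at h
    linarith
  have hk1 : ∀ k ∈ Finset.range L, ((k : ℝ) + 1) ≤ L := by
    intro k hk
    have : k + 1 ≤ L := Finset.mem_range.1 hk
    exact_mod_cast this
  have hfin : 36 * gam ^ 2 * (L : ℝ) ^ 8 ≤ 1 / 4 := by
    have h := pow_le_pow_left₀ (by positivity) hg 2
    have e : 36 * gam ^ 2 * (L : ℝ) ^ 8 = 36 * (gam * (L : ℝ) ^ 4) ^ 2 := by ring
    rw [e]
    linarith
  constructor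
  · intro x
    have hx : hs (mx x) = ∑ e, x e ^ 2 := by
      rw [Fintype.sum_prod_type]
      rfl
    have hx0 := hs_nonneg (mx x)
    have e1 : ∑ e, (KK L c A *ᵥ x) e ^ 2 =
        hs (∑ k ∈ Finset.range L, (1 / 2 * c k) • ∑ a ∈ Finset.range (k + 1),
          (cheb a A * mx x * cheb (k - a) A + cheb a A * (mx x)ᵀ * cheb (k - a) A)) := by
      rw [Fintype.sum_prod_type]
      refine Finset.sum_congr rfl fun i _ => Finset.sum_congr rfl fun j _ => ?_
      rw [KK_mulVec]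
    have e2 : ∀ k ∈ Finset.range L, hs ((1 / 2 * c k) • ∑ a ∈ Finset.range (k + 1),
        (cheb a A * mx x * cheb (k - a) A + cheb a A * (mx x)ᵀ * cheb (k - a) A)) ≤
        36 * gam ^ 2 * (L : ℝ) ^ 6 * hs (mx x) := by
      intro k hk
      have e3 : ∀ a ∈ Finset.range (k + 1),
          hs (cheb a A * mx x * cheb (k - a) A + cheb a A * (mx x)ᵀ * cheb (k - a) A) ≤
            4 * (9 * (L : ℝ) ^ 4 * hs (mx x)) := by
        intro a ha
        have ha' : a ≤ k := by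
          have := Finset.mem_range.1 ha
          omega
        have t1 := hs_term' hL hA hA (mx x) ha' (Finset.mem_range.1 hk)
        have t2 := hs_term' hL hA hA (mx x)ᵀ ha' (Finset.mem_range.1 hk)
        rw [hs_transpose] at t2
        refine (hs_add _ _).trans ?_
        linarith
      rw [hs_smul]
      have e4 := (hs_sum (Finset.range (k + 1)) fun a =>
        (cheb a A * mx x * cheb (k - a) A + cheb a A * (mx x)ᵀ * cheb (k - a) A)).trans
        (mul_le_mul_of_nonneg_left (Finset.sum_le_sum e3) (Nat.cast_nonneg _))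
      rw [Finset.sum_const, Finset.card_range, nsmul_eq_mul] at e4
      push_cast at e4
      have e5 := mul_le_mul_of_nonneg_left e4 (sq_nonneg (1 / 2 * c k))
      refine e5.trans ?_
      have e6 : (1 / 2 * c k) ^ 2 * (((k : ℝ) + 1) * (((k : ℝ) + 1) *
          (4 * (9 * (L : ℝ) ^ 4 * hs (mx x))))) =
          c k ^ 2 * ((k : ℝ) + 1) ^ 2 * (9 * (L : ℝ) ^ 4 * hs (mx x)) := by ring
      rw [e6]
      have e7 : c k ^ 2 * ((k : ℝ) + 1) ^ 2 ≤ 4 * gam ^ 2 * (L : ℝ) ^ 2 :=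
        mul_le_mul (hc2 k) (pow_le_pow_left₀ (by positivity) (hk1 k hk) 2) (by positivity)
          (by positivity)
      refine (mul_le_mul_of_nonneg_right e7 (by positivity)).trans (le_of_eq ?_)
      ring
    rw [e1, ← hx]
    refine (hs_sum _ _).trans ?_
    rw [Finset.card_range]
    refine (mul_le_mul_of_nonneg_left (Finset.sum_le_sum e2) (Nat.cast_nonneg L)).trans ?_
    rw [Finset.sum_const, Finset.card_range, nsmul_eq_mul]
    have e8 : (L : ℝ) * (L * (36 * gam ^ 2 * (L : ℝ) ^ 6 * hs (mx x))) =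
        36 * gam ^ 2 * (L : ℝ) ^ 8 * hs (mx x) := by ring
    rw [e8]
    exact mul_le_mul_of_nonneg_right hfin hx0
  · have hd := hs_nonneg (A - B)
    have e1 : ∑ i, ∑ j, (hm L c A i j - hm L c B i j) ^ 2 =
        hs (∑ k ∈ Finset.range L, c k • (cheb (k + 1) A - cheb (k + 1) B)) := by
      have : ∑ k ∈ Finset.range L, c k • (cheb (k + 1) A - cheb (k + 1) B) =
          hm L c A - hm L c B := by
        unfold hm
        rw [← Finset.sum_sub_distrib]
        refine Finset.sum_congr rfl fun k _ => ?_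
        rw [smul_sub]
      rw [this]
      rfl
    have e2 : ∑ i, ∑ j, (A i j - B i j) ^ 2 = hs (A - B) := rfl
    rw [e1, e2]
    refine (hs_sum _ _).trans ?_
    rw [Finset.card_range]
    have e3 : ∀ k ∈ Finset.range L, hs (c k • (cheb (k + 1) A - cheb (k + 1) B)) ≤
        36 * gam ^ 2 * (L : ℝ) ^ 6 * hs (A - B) := by
      intro k hk
      rw [hs_smul, cheb_sub]
      have e4 : ∀ a ∈ Finset.range (k + 1),
          hs (cheb a A * (A - B) * cheb (k - a) B) ≤ 9 * (L : ℝ) ^ 4 * hs (A - B) := by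
        intro a ha
        have ha' : a ≤ k := by
          have := Finset.mem_range.1 ha
          omega
        exact hs_term' hL hA hB (A - B) ha' (Finset.mem_range.1 hk)
      have e5 := (hs_sum (Finset.range (k + 1)) fun a =>
        cheb a A * (A - B) * cheb (k - a) B).trans
        (mul_le_mul_of_nonneg_left (Finset.sum_le_sum e4) (Nat.cast_nonneg _))
      rw [Finset.sum_const, Finset.card_range, nsmul_eq_mul] at e5
      push_cast at e5
      have e6 := mul_le_mul_of_nonneg_left e5 (sq_nonneg (c k))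
      refine e6.trans ?_
      have e7 : c k ^ 2 * (((k : ℝ) + 1) * (((k : ℝ) + 1) * (9 * (L : ℝ) ^ 4 * hs (A - B)))) =
          c k ^ 2 * ((k : ℝ) + 1) ^ 2 * (9 * (L : ℝ) ^ 4 * hs (A - B)) := by ring
      rw [e7]
      have e8 : c k ^ 2 * ((k : ℝ) + 1) ^ 2 ≤ 4 * gam ^ 2 * (L : ℝ) ^ 2 :=
        mul_le_mul (hc2 k) (pow_le_pow_left₀ (by positivity) (hk1 k hk) 2) (by positivity)
          (by positivity)
      refine (mul_le_mul_of_nonneg_right e8 (by positivity)).trans (le_of_eq ?_)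
      ring
    refine (mul_le_mul_of_nonneg_left (Finset.sum_le_sum e3) (Nat.cast_nonneg L)).trans ?_
    rw [Finset.sum_const, Finset.card_range, nsmul_eq_mul]
    have e9 : (L : ℝ) * (L * (36 * gam ^ 2 * (L : ℝ) ^ 6 * hs (A - B))) =
        36 * gam ^ 2 * (L : ℝ) ^ 8 * hs (A - B) := by ring
    rw [e9]
    exact mul_le_mul_of_nonneg_right hfin hd

/-- the spectral bound for the operator norm -/
theorem norm_cheb_le {A : Matrix (Fin n) (Fin n) ℝ} (hA : A.IsSymm) {q : ℝ} (hq : 1 ≤ q)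
    (h : ‖A‖ ≤ q + q⁻¹) (a : ℕ) : ‖cheb a A‖ ≤ ((a : ℝ) + 1) * q ^ a := by
  have hop : ∀ v : Fin n → ℝ, ∑ i, (A.mulVec v) i ^ 2 ≤ (q + q⁻¹) ^ 2 * ∑ i, v i ^ 2 := by
    intro v
    have h3 := Matrix.l2_opNorm_mulVec A (WithLp.toLp 2 v)
    have h4 := pow_le_pow_left₀ (norm_nonneg _) h3 2
    rw [mul_pow, EuclideanSpace.real_norm_sq_eq, EuclideanSpace.real_norm_sq_eq] at h4
    refine le_trans h4 ?_
    exact mul_le_mul_of_nonneg_right (pow_le_pow_left₀ (norm_nonneg _) h 2)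
      (Finset.sum_nonneg fun _ _ => sq_nonneg _)
  have hb : (0 : ℝ) ≤ ((a : ℝ) + 1) * q ^ a := by
    have : (0 : ℝ) ≤ q := by linarith
    positivity
  rw [Matrix.l2_opNorm_def]
  refine ContinuousLinearMap.opNorm_le_bound _ hb fun v => ?_
  have h1 := Vale.Agent.P146.R2.H432.cheb_norm (fun i j => hA.apply j i) hq hop a v.ofLp
  refine le_of_sq_le_sq ?_ (mul_nonneg hb (norm_nonneg _))
  rw [mul_pow, EuclideanSpace.real_norm_sq_eq, EuclideanSpace.real_norm_sq_eq]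
  exact h1

/-- **Row E'.** -/
theorem rowE : ∃ κ₀ : ℝ, 0 < κ₀ ∧ ∀ (L : ℕ), 1 ≤ L → ∀ (gam : ℝ), 0 ≤ gam →
    gam * (L : ℝ) ^ 4 ≤ κ₀ → ∀ c : ℕ → ℝ, (∀ k, |c k| ≤ 2 * gam) →
    ∀ (N : ℕ) (A B : Matrix (Fin N) (Fin N) ℝ), A.IsSymm → B.IsSymm →
      ‖A‖ ≤ (1 + 1 / (L : ℝ)) + (1 + 1 / (L : ℝ))⁻¹ →
      ‖B‖ ≤ (1 + 1 / (L : ℝ)) + (1 + 1 / (L : ℝ))⁻¹ →
      (∀ x : Ix N → ℝ, ∑ e, (KK L c A *ᵥ x) e ^ 2 ≤ 1 / 4 * ∑ e, x e ^ 2) ∧
      ∑ i, ∑ j, (hm L c A i j - hm L c B i j) ^ 2 ≤ 1 / 4 * ∑ i, ∑ j, (A i j - B i j) ^ 2 := by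
  refine ⟨1 / 12, by norm_num, ?_⟩
  intro L hL gam h0 hg c hc N A B hA hB nA nB
  have hL' : (0 : ℝ) < L := by exact_mod_cast hL
  have hq : (1 : ℝ) ≤ 1 + 1 / (L : ℝ) := by
    have : 0 < 1 / (L : ℝ) := by positivity
    linarith
  exact rowE_of hL h0 hg c hc (fun a => norm_cheb_le hA hq nA a) (fun a => norm_cheb_le hB hq nB a)

end Vale.Agent.P146.R2.H501.RowE
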