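import Vale.Agent.P146.H501.M5
import Vale.Agent.P146.R2.H597.Par

/-!
# P146: the moments of the overlap at the scale of the final parameters
-/

open Filter Topology

namespace Vale.Agent.P146.R2.H501

open Vale.Agent.P146 Vale.Agent.P146.H501 Vale.Agent.P146.H605 Vale.Agent.P146.R2

/-- `exp (-n^(4/5))` is smaller than every power of `n^(1/8000)` -/
lemma exp_small (A : ℕ) : ∀ᶠ n : ℕ in atTop,
    Real.exp (-(n : ℝ) ^ (4 / 5 : ℝ)) ≤ 1 / zz0 n ^ A := by
  have h1 : Tendsto (fun x : ℝ => x ^ A * Real.exp (-x)) atTop (𝓝 0) :=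
    Real.tendsto_pow_mul_exp_neg_atTop_nhds_zero A
  have h2 := (h1.comp tendsto_zz0).eventually (ge_mem_nhds (show (0 : ℝ) < 1 by norm_num))
  filter_upwards [h2, tendsto_zz0.eventually_ge_atTop 1] with n hn hz
  have hz0 : 0 < zz0 n := by linarith
  have hn' : zz0 n ^ A * Real.exp (-zz0 n) ≤ 1 := hn
  have e : (n : ℝ) ^ (4 / 5 : ℝ) = zz0 n ^ 6400 := by
    unfold zz0
    rw [← Real.rpow_natCast, ← Real.rpow_mul (Nat.cast_nonneg n)]
    norm_num
  have h3 : zz0 n ≤ zz0 n ^ 6400 := le_self_pow₀ hz (by norm_num)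
  rw [e, le_div_iff₀ (pow_pos hz0 A), mul_comm]
  refine le_trans (mul_le_mul_of_nonneg_left (Real.exp_le_exp.2 (neg_le_neg h3))
    (pow_pos hz0 A).le) hn'

/-- **The moments of the overlap.** -/
theorem m5_num {β : ℝ} (hβ : 1 < β) : ∀ᶠ n : ℕ in atTop, ∀ t : ℝ, 0 ≤ t →
    1 / zz0 n ^ 2 ≤ 1 - t →
    crossMom n β 1 t ≤ 2 / zz0 n ^ 192 ∧
      n * crossMom n β 4 t ≤ n * crossOverlap n β t / zz0 n ^ 392 + 1 / zz0 n ^ 240 := by
  obtain ⟨N, hN⟩ := crossMom_tail hβ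
  filter_upwards [eventually_ge_atTop N, eventually_ge_atTop 1,
    tendsto_zz0.eventually_ge_atTop 1, exp_small 8240] with n hn hn1 hz hexp t ht0 hτ
  obtain ⟨z, hzz⟩ : ∃ z, z = zz0 n := ⟨_, rfl⟩
  have hzn : z ^ 8000 = n := by rw [hzz]; exact zz0_pow n
  obtain ⟨E, hE⟩ : ∃ E, E = Real.exp (-(n : ℝ) ^ (4 / 5 : ℝ)) := ⟨_, rfl⟩
  have hz20 : (n : ℝ) ^ (-(1 / 20) : ℝ) = 1 / z ^ 400 := by
    rw [hzz, Real.rpow_neg (Nat.cast_nonneg n), one_div]
    unfold zz0
    rw [← Real.rpow_natCast, ← Real.rpow_mul (Nat.cast_nonneg n)]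
    norm_num
  have hN' := hN n hn
  rw [← hzz] at hz hexp hτ ⊢
  rw [← hE] at hexp hN'
  have hz0 : 0 < z := by linarith
  have hE0 : 0 ≤ E := by rw [hE]; exact (Real.exp_pos _).le
  have hτ0 : 0 < 1 - t := lt_of_lt_of_le (by positivity) hτ
  have ht1 : t ≤ 1 := by linarith
  obtain ⟨δ, hδ⟩ : ∃ δ, δ = 1 / z ^ 398 := ⟨_, rfl⟩
  have hδ0 : 0 ≤ δ := by rw [hδ]; positivity
  have hcond : (n : ℝ) ^ (-(1 / 20) : ℝ) ≤ (1 - t) * δ := by
    rw [hz20, hδ]
    have h1 : 1 / z ^ 2 * (1 / z ^ 398) ≤ (1 - t) * (1 / z ^ 398) :=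
      mul_le_mul_of_nonneg_right hτ (by positivity)
    refine le_trans (le_of_eq ?_) h1
    rw [div_mul_div_comm, one_mul, ← pow_add]
  have hsq : Real.sqrt δ = 1 / z ^ 199 := by
    rw [hδ]
    have : (1 : ℝ) / z ^ 398 = (1 / z ^ 199) ^ 2 := by
      rw [div_pow, one_pow, ← pow_mul]
    rw [this, Real.sqrt_sq (by positivity)]
  have h1 := hN' t δ ht0 ht1 hcond 1 0
  have h4 := hN' t δ ht0 ht1 hcond 2 2
  rw [crossMom_zero, mul_one, pow_one, hsq] at h1
  rw [hsq, crossMom_two] at h4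
  constructor
  · refine h1.trans ?_
    have e1 : 1 / z ^ 199 ≤ 1 / z ^ 192 :=
      one_div_le_one_div_of_le (by positivity) (pow_le_pow_right₀ hz (by norm_num))
    have e2 : 1 / z ^ 8240 ≤ 1 / z ^ 192 :=
      one_div_le_one_div_of_le (by positivity) (pow_le_pow_right₀ hz (by norm_num))
    have e3 : 2 / z ^ 192 = 1 / z ^ 192 + 1 / z ^ 192 := by ring
    rw [e3]
    linarith
  · have hn0 : (0 : ℝ) ≤ n := Nat.cast_nonneg n
    have h5 := mul_le_mul_of_nonneg_left h4 hn0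
    refine h5.trans ?_
    have hX : 0 ≤ n * crossOverlap n β t := by
      refine mul_nonneg hn0 ?_
      rw [← crossMom_two, crossMom_eq, ← gm_const n β 0 t]
      exact gm_mono n β (fun σ τ => pow_nonneg (abs_nonneg _) _) t
    have e1 : (1 / z ^ 199) ^ 2 ≤ 1 / z ^ 392 := by
      rw [div_pow, one_pow, ← pow_mul]
      exact one_div_le_one_div_of_le (by positivity) (pow_le_pow_right₀ hz (by norm_num))
    have e2 := mul_le_mul_of_nonneg_left e1 hX
    have e3 : (n : ℝ) * E ≤ 1 / z ^ 240 := by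
      rw [← hzn]
      have e4 := mul_le_mul_of_nonneg_left hexp (by positivity : 0 ≤ z ^ 8000)
      refine e4.trans (le_of_eq ?_)
      have : z ^ 8240 = z ^ 8000 * z ^ 240 := by rw [← pow_add]
      rw [this]
      field_simp
    have e5 : (n : ℝ) * ((1 / z ^ 199) ^ 2 * crossOverlap n β t + E) =
        n * crossOverlap n β t * (1 / z ^ 199) ^ 2 + n * E := by ring
    rw [e5, div_eq_mul_one_div (n * crossOverlap n β t)]
    linarith

end Vale.Agent.P146.R2.H501
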