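import Vale.Agent.P146.R2.H729.TrDef

/-!
# P146 (helper501): Hilbert-Schmidt bounds, row E of the transport
-/

open Matrix
open scoped Matrix.Norms.L2Operator

namespace Vale.Agent.P146.R2.H501.TrE

open Vale.Agent.P146.R2.H432 (cheb)
open Vale.Agent.P146.R2.H729.Tr
open Vale.Agent.P146.Sk (Wm Ix)

variable {n : ℕ}

/-- the square of the Hilbert-Schmidt norm -/
def hs (X : Matrix (Fin n) (Fin n) ℝ) : ℝ := ∑ i, ∑ j, X i j ^ 2

theorem hs_nonneg (X : Matrix (Fin n) (Fin n) ℝ) : 0 ≤ hs X :=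
  Finset.sum_nonneg fun _ _ => Finset.sum_nonneg fun _ _ => sq_nonneg _

theorem hs_transpose (X : Matrix (Fin n) (Fin n) ℝ) : hs Xᵀ = hs X := Finset.sum_comm

theorem hs_mul_left (P X : Matrix (Fin n) (Fin n) ℝ) : hs (P * X) ≤ ‖P‖ ^ 2 * hs X := by
  have h1 : hs (P * X) = ∑ j, ∑ i, (P *ᵥ fun i => X i j) i ^ 2 := Finset.sum_comm
  have h2 : hs X = ∑ j, ∑ i, X i j ^ 2 := Finset.sum_comm
  rw [h1, h2, Finset.mul_sum]
  refine Finset.sum_le_sum fun j _ => ?_
  have h3 := Matrix.l2_opNorm_mulVec P (WithLp.toLp 2 (fun i => X i j))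
  have h4 := pow_le_pow_left₀ (norm_nonneg _) h3 2
  rw [mul_pow, EuclideanSpace.real_norm_sq_eq, EuclideanSpace.real_norm_sq_eq] at h4
  exact h4

theorem norm_transpose (Q : Matrix (Fin n) (Fin n) ℝ) : ‖Qᵀ‖ = ‖Q‖ := by
  rw [← Matrix.conjTranspose_eq_transpose_of_trivial, Matrix.l2_opNorm_conjTranspose]

theorem hs_mul_right (X Q : Matrix (Fin n) (Fin n) ℝ) : hs (X * Q) ≤ ‖Q‖ ^ 2 * hs X := by
  rw [← hs_transpose, Matrix.transpose_mul]
  refine (hs_mul_left _ _).trans ?_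
  rw [norm_transpose, hs_transpose]

theorem hs_smul (c : ℝ) (X : Matrix (Fin n) (Fin n) ℝ) : hs (c • X) = c ^ 2 * hs X := by
  unfold hs
  simp only [Matrix.smul_apply, smul_eq_mul, mul_pow, Finset.mul_sum]

theorem hs_sum {κ : Type*} (s : Finset κ) (M : κ → Matrix (Fin n) (Fin n) ℝ) :
    hs (∑ k ∈ s, M k) ≤ s.card * ∑ k ∈ s, hs (M k) := by
  have h : ∀ i j, (∑ k ∈ s, M k) i j ^ 2 ≤ s.card * ∑ k ∈ s, M k i j ^ 2 := by
    intro i j
    rw [Matrix.sum_apply]
    exact sq_sum_le_card_mul_sum_sq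
  calc hs (∑ k ∈ s, M k) ≤ ∑ i, ∑ j, (s.card : ℝ) * ∑ k ∈ s, M k i j ^ 2 :=
        Finset.sum_le_sum fun i _ => Finset.sum_le_sum fun j _ => h i j
    _ = s.card * ∑ k ∈ s, hs (M k) := by
        unfold hs
        simp only [← Finset.mul_sum]
        congr 1
        rw [Finset.sum_comm' (s := s) (t := fun _ => Finset.univ) (t' := Finset.univ)
          (s' := fun _ => s) (by simp)]
        refine Finset.sum_congr rfl fun i _ => ?_
        rw [Finset.sum_comm]

theorem hs_add (X Y : Matrix (Fin n) (Fin n) ℝ) : hs (X + Y) ≤ 2 * (hs X + hs Y) := by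
  unfold hs
  rw [← Finset.sum_add_distrib, Finset.mul_sum]
  refine Finset.sum_le_sum fun i _ => ?_
  rw [← Finset.sum_add_distrib, Finset.mul_sum]
  refine Finset.sum_le_sum fun j _ => ?_
  rw [Matrix.add_apply]
  nlinarith [sq_nonneg (X i j - Y i j)]

theorem hs_three (X Y Z : Matrix (Fin n) (Fin n) ℝ) :
    hs (X + Y - Z) ≤ 3 * (hs X + hs Y + hs Z) := by
  unfold hs
  rw [← Finset.sum_add_distrib, ← Finset.sum_add_distrib, Finset.mul_sum]
  refine Finset.sum_le_sum fun i _ => ?_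
  rw [← Finset.sum_add_distrib, ← Finset.sum_add_distrib, Finset.mul_sum]
  refine Finset.sum_le_sum fun j _ => ?_
  rw [Matrix.sub_apply, Matrix.add_apply]
  nlinarith [sq_nonneg (X i j - Y i j), sq_nonneg (X i j + Z i j), sq_nonneg (Y i j + Z i j)]

theorem norm_one_le : ‖(1 : Matrix (Fin n) (Fin n) ℝ)‖ ≤ 1 := by
  rw [← Matrix.diagonal_one, Matrix.l2_opNorm_diagonal]
  rw [pi_norm_le_iff_of_nonneg zero_le_one]
  intro i
  simp

theorem norm_cheb (A : Matrix (Fin n) (Fin n) ℝ) (hA : ‖A‖ ≤ 3) :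
    ∀ k, ‖cheb k A‖ ≤ 4 ^ k ∧ ‖cheb (k + 1) A‖ ≤ 4 ^ (k + 1) := by
  intro k
  induction k with
  | zero =>
    refine ⟨?_, ?_⟩
    · rw [pow_zero]
      exact norm_one_le
    · show ‖A‖ ≤ 4 ^ 1
      linarith
  | succ k ih =>
    refine ⟨ih.2, ?_⟩
    show ‖A * cheb (k + 1) A - cheb k A‖ ≤ _
    have h1 : ‖A * cheb (k + 1) A‖ ≤ 3 * 4 ^ (k + 1) :=
      (norm_mul_le _ _).trans (mul_le_mul hA ih.2 (norm_nonneg _) (by norm_num))
    have h2 : (4 : ℝ) ^ (k + 1 + 1) = 16 * 4 ^ k := by ring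
    have h3 : (4 : ℝ) ^ (k + 1) = 4 * 4 ^ k := by ring
    have h4 : (0 : ℝ) < 4 ^ k := by positivity
    calc ‖A * cheb (k + 1) A - cheb k A‖ ≤ ‖A * cheb (k + 1) A‖ + ‖cheb k A‖ := norm_sub_le _ _
      _ ≤ 3 * 4 ^ (k + 1) + 4 ^ k := add_le_add h1 ih.1
      _ ≤ 4 ^ (k + 1 + 1) := by rw [h2, h3]; linarith

theorem hs_diff (A B : Matrix (Fin n) (Fin n) ℝ) (hA : ‖A‖ ≤ 3) (hB : ‖B‖ ≤ 3) :
    ∀ k, hs (cheb k A - cheb k B) ≤ 100 ^ k * hs (A - B) ∧
      hs (cheb (k + 1) A - cheb (k + 1) B) ≤ 100 ^ (k + 1) * hs (A - B) := by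
  intro k
  have h0 := hs_nonneg (A - B)
  induction k with
  | zero =>
    refine ⟨?_, ?_⟩
    · show hs (1 - 1) ≤ _
      rw [sub_self]
      have : hs (0 : Matrix (Fin n) (Fin n) ℝ) = 0 := by simp [hs]
      rw [this, pow_zero, one_mul]
      exact h0
    · show hs (A - B) ≤ 100 ^ 1 * hs (A - B)
      linarith
  | succ k ih =>
    refine ⟨ih.2, ?_⟩
    have e1 : cheb (k + 1 + 1) A - cheb (k + 1 + 1) B =
        A * (cheb (k + 1) A - cheb (k + 1) B) + (A - B) * cheb (k + 1) B -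
          (cheb k A - cheb k B) := by
      show (A * cheb (k + 1) A - cheb k A) - (B * cheb (k + 1) B - cheb k B) = _
      noncomm_ring
    rw [e1]
    have i1 : hs (A * (cheb (k + 1) A - cheb (k + 1) B)) ≤
        9 * (100 ^ (k + 1) * hs (A - B)) := by
      refine (hs_mul_left _ _).trans ?_
      have : ‖A‖ ^ 2 ≤ 9 := by nlinarith [norm_nonneg A]
      exact mul_le_mul this ih.2 (hs_nonneg _) (by norm_num)
    have i2 : hs ((A - B) * cheb (k + 1) B) ≤ 16 ^ (k + 1) * hs (A - B) := by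
      refine (hs_mul_right _ _).trans ?_
      have : ‖cheb (k + 1) B‖ ^ 2 ≤ 16 ^ (k + 1) := by
        have h := pow_le_pow_left₀ (norm_nonneg _) (norm_cheb B hB k).2 2
        calc ‖cheb (k + 1) B‖ ^ 2 ≤ ((4 : ℝ) ^ (k + 1)) ^ 2 := h
          _ = 16 ^ (k + 1) := by rw [← pow_mul, mul_comm, pow_mul]; norm_num
      exact mul_le_mul_of_nonneg_right this h0
    have i3 := ih.1
    have i4 : (16 : ℝ) ^ (k + 1) ≤ 100 ^ (k + 1) :=
      pow_le_pow_left₀ (by norm_num) (by norm_num) _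
    have i5 : (16 : ℝ) ^ (k + 1) * hs (A - B) ≤ 100 ^ (k + 1) * hs (A - B) :=
      mul_le_mul_of_nonneg_right i4 h0
    have e2 : (100 : ℝ) ^ (k + 1 + 1) * hs (A - B) = 100 * (100 ^ (k + 1) * hs (A - B)) := by ring
    have e3 : (100 : ℝ) ^ (k + 1) * hs (A - B) = 100 * (100 ^ k * hs (A - B)) := by ring
    have i6 : 0 ≤ (100 : ℝ) ^ k * hs (A - B) := mul_nonneg (by positivity) h0
    refine (hs_three _ _ _).trans ?_
    rw [e2]
    linarith

/-- the matrix of a vector -/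
def mx (x : Ix n → ℝ) : Matrix (Fin n) (Fin n) ℝ := fun i j => x (i, j)

theorem sum_one (P Q : Matrix (Fin n) (Fin n) ℝ) (x : Ix n → ℝ) (u v : Fin n) :
    ∑ f : Ix n, P u f.1 * Q f.2 v * x f = (P * mx x * Q) u v := by
  rw [Matrix.mul_apply, Fintype.sum_prod_type, Finset.sum_comm]
  refine Finset.sum_congr rfl fun j _ => ?_
  rw [Matrix.mul_apply, Finset.sum_mul]
  refine Finset.sum_congr rfl fun i _ => ?_
  show P u i * Q j v * x (i, j) = P u i * x (i, j) * Q j v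
  ring

theorem sum_two (P Q : Matrix (Fin n) (Fin n) ℝ) (x : Ix n → ℝ) (u v : Fin n) :
    ∑ f : Ix n, P u f.2 * Q f.1 v * x f = (P * (mx x)ᵀ * Q) u v := by
  rw [Matrix.mul_apply, Fintype.sum_prod_type]
  refine Finset.sum_congr rfl fun j _ => ?_
  rw [Matrix.mul_apply, Finset.sum_mul]
  refine Finset.sum_congr rfl fun i _ => ?_
  show P u i * Q j v * x (j, i) = P u i * x (j, i) * Q j v
  ring

theorem KK_mulVec (L : ℕ) (c : ℕ → ℝ) (A : Matrix (Fin n) (Fin n) ℝ) (x : Ix n → ℝ) (e : Ix n) :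
    (KK L c A *ᵥ x) e = (∑ k ∈ Finset.range L, (1 / 2 * c k) • ∑ a ∈ Finset.range (k + 1),
      (cheb a A * mx x * cheb (k - a) A + cheb a A * (mx x)ᵀ * cheb (k - a) A)) e.1 e.2 := by
  have h1 : (KK L c A *ᵥ x) e = ∑ f : Ix n, ∑ k ∈ Finset.range L, ∑ a ∈ Finset.range (k + 1),
      (1 / 2 * c k) * ((cheb a A e.1 f.1 * cheb (k - a) A f.2 e.2 +
        cheb a A e.1 f.2 * cheb (k - a) A f.1 e.2) * x f) := by
    show ∑ f : Ix n, KK L c A e f * x f = _
    refine Finset.sum_congr rfl fun f _ => ?_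
    show (1 / 2 * ∑ k ∈ Finset.range L, c k * ∑ a ∈ Finset.range (k + 1),
      (cheb a A e.1 f.1 * cheb (k - a) A f.2 e.2 + cheb a A e.1 f.2 * cheb (k - a) A f.1 e.2)) *
      x f = _
    rw [Finset.mul_sum, Finset.sum_mul]
    refine Finset.sum_congr rfl fun k _ => ?_
    rw [← mul_assoc, Finset.mul_sum, Finset.sum_mul]
    refine Finset.sum_congr rfl fun a _ => ?_
    ring
  rw [h1, Finset.sum_comm, Matrix.sum_apply]
  refine Finset.sum_congr rfl fun k _ => ?_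
  rw [Finset.sum_comm, Matrix.smul_apply, Matrix.sum_apply, smul_eq_mul, Finset.mul_sum]
  refine Finset.sum_congr rfl fun a _ => ?_
  rw [← Finset.mul_sum, Matrix.add_apply, ← sum_one, ← sum_two, ← Finset.sum_add_distrib]
  congr 1
  refine Finset.sum_congr rfl fun f _ => ?_
  ring

theorem hs_term (A X : Matrix (Fin n) (Fin n) ℝ) (hA : ‖A‖ ≤ 3) {a k : ℕ} (ha : a ≤ k) :
    hs (cheb a A * X * cheb (k - a) A) ≤ 16 ^ k * hs X := by
  have h16 : ∀ m, ‖cheb m A‖ ^ 2 ≤ 16 ^ m := by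
    intro m
    have h := pow_le_pow_left₀ (norm_nonneg _) (norm_cheb A hA m).1 2
    calc ‖cheb m A‖ ^ 2 ≤ ((4 : ℝ) ^ m) ^ 2 := h
      _ = 16 ^ m := by rw [← pow_mul, mul_comm, pow_mul]; norm_num
  have h0 := hs_nonneg X
  calc hs (cheb a A * X * cheb (k - a) A) ≤ ‖cheb (k - a) A‖ ^ 2 * hs (cheb a A * X) :=
        hs_mul_right _ _
    _ ≤ 16 ^ (k - a) * (16 ^ a * hs X) := by
        refine mul_le_mul (h16 _) ?_ (hs_nonneg _) (by positivity)
        exact (hs_mul_left _ _).trans (mul_le_mul_of_nonneg_right (h16 _) h0)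
    _ = 16 ^ k * hs X := by
        rw [← mul_assoc, ← pow_add, Nat.sub_add_cancel ha]

theorem stE : StE := by
  intro L c
  refine ⟨1 + L * ∑ k ∈ Finset.range L, ((k : ℝ) + 1) ^ 2 * c k ^ 2 * 16 ^ k +
    L * ∑ k ∈ Finset.range L, c k ^ 2 * 100 ^ (k + 1), ?_, ?_⟩
  · have h1 : 0 ≤ (L : ℝ) * ∑ k ∈ Finset.range L, ((k : ℝ) + 1) ^ 2 * c k ^ 2 * 16 ^ k :=
      mul_nonneg (Nat.cast_nonneg _) (Finset.sum_nonneg fun k _ => by positivity)
    have h2 : 0 ≤ (L : ℝ) * ∑ k ∈ Finset.range L, c k ^ 2 * 100 ^ (k + 1) :=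
      mul_nonneg (Nat.cast_nonneg _) (Finset.sum_nonneg fun k _ => by positivity)
    linarith
  intro N A B _ _ hA hB
  have h1 : 0 ≤ (L : ℝ) * ∑ k ∈ Finset.range L, ((k : ℝ) + 1) ^ 2 * c k ^ 2 * 16 ^ k :=
    mul_nonneg (Nat.cast_nonneg _) (Finset.sum_nonneg fun k _ => by positivity)
  have h2 : 0 ≤ (L : ℝ) * ∑ k ∈ Finset.range L, c k ^ 2 * 100 ^ (k + 1) :=
    mul_nonneg (Nat.cast_nonneg _) (Finset.sum_nonneg fun k _ => by positivity)
  constructor
  · intro x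
    have hx : hs (mx x) = ∑ e, x e ^ 2 := by
      rw [Fintype.sum_prod_type]
      rfl
    have hx0 := hs_nonneg (mx x)
    have e1 : ∑ e, (KK L c A *ᵥ x) e ^ 2 =
        hs (∑ k ∈ Finset.range L, (1 / 2 * c k) • ∑ a ∈ Finset.range (k + 1),
          (cheb a A * mx x * cheb (k - a) A + cheb a A * (mx x)ᵀ * cheb (k - a) A)) := by
      rw [Fintype.sum_prod_type]
      refine Finset.sum_congr rfl fun i _ => Finset.sum_congr rfl fun j _ => ?_
      rw [KK_mulVec]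
    have e2 : ∀ k ∈ Finset.range L, hs ((1 / 2 * c k) • ∑ a ∈ Finset.range (k + 1),
        (cheb a A * mx x * cheb (k - a) A + cheb a A * (mx x)ᵀ * cheb (k - a) A)) ≤
        ((k : ℝ) + 1) ^ 2 * c k ^ 2 * 16 ^ k * hs (mx x) := by
      intro k _
      have e3 : ∀ a ∈ Finset.range (k + 1),
          hs (cheb a A * mx x * cheb (k - a) A + cheb a A * (mx x)ᵀ * cheb (k - a) A) ≤
            4 * (16 ^ k * hs (mx x)) := by
        intro a ha
        have ha' : a ≤ k := by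
          have := Finset.mem_range.1 ha
          omega
        have t1 := hs_term A (mx x) hA ha'
        have t2 := hs_term A (mx x)ᵀ hA ha'
        rw [hs_transpose] at t2
        refine (hs_add _ _).trans ?_
        linarith
      rw [hs_smul]
      have e4 := (hs_sum (Finset.range (k + 1)) fun a =>
        (cheb a A * mx x * cheb (k - a) A + cheb a A * (mx x)ᵀ * cheb (k - a) A)).trans
        (mul_le_mul_of_nonneg_left (Finset.sum_le_sum e3) (Nat.cast_nonneg _))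
      rw [Finset.sum_const, Finset.card_range, nsmul_eq_mul] at e4
      push_cast at e4
      have e5 := mul_le_mul_of_nonneg_left e4 (sq_nonneg (1 / 2 * c k))
      refine e5.trans (le_of_eq ?_)
      ring
    rw [e1, ← hx]
    refine (hs_sum _ _).trans ?_
    rw [Finset.card_range]
    refine (mul_le_mul_of_nonneg_left (Finset.sum_le_sum e2) (Nat.cast_nonneg L)).trans ?_
    rw [← Finset.sum_mul, ← mul_assoc]
    refine mul_le_mul_of_nonneg_right ?_ hx0
    linarith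
  · have h0 := hs_nonneg (A - B)
    have e1 : ∑ i, ∑ j, (hm L c A i j - hm L c B i j) ^ 2 =
        hs (∑ k ∈ Finset.range L, c k • (cheb (k + 1) A - cheb (k + 1) B)) := by
      have : ∑ k ∈ Finset.range L, c k • (cheb (k + 1) A - cheb (k + 1) B) =
          hm L c A - hm L c B := by
        unfold hm
        rw [← Finset.sum_sub_distrib]
        refine Finset.sum_congr rfl fun k _ => ?_
        rw [smul_sub]
      rw [this]
      rfl
    have e2 : ∑ i, ∑ j, (A i j - B i j) ^ 2 = hs (A - B) := rfl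
    rw [e1, e2]
    refine (hs_sum _ _).trans ?_
    rw [Finset.card_range]
    have e3 : ∀ k ∈ Finset.range L, hs (c k • (cheb (k + 1) A - cheb (k + 1) B)) ≤
        c k ^ 2 * 100 ^ (k + 1) * hs (A - B) := by
      intro k _
      rw [hs_smul, mul_assoc]
      exact mul_le_mul_of_nonneg_left (hs_diff A B hA hB k).2 (sq_nonneg _)
    refine (mul_le_mul_of_nonneg_left (Finset.sum_le_sum e3) (Nat.cast_nonneg L)).trans ?_
    rw [← Finset.sum_mul, ← mul_assoc]
    refine mul_le_mul_of_nonneg_right ?_ h0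
    linarith

end Vale.Agent.P146.R2.H501.TrE
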